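import Mathlib

/-! Pointwise inequalities for the logarithmic form of the entropy bound. -/

open Real

namespace Vale.Agent.P245.H89

/-- the weight `1 + log (1 + t²)` -/
noncomputable def wt (t : ℝ) : ℝ := 1 + log (1 + t ^ 2)

/-- the test function -/
noncomputable def GG (t : ℝ) : ℝ := (√(1 + t ^ 2) - √2) * √(wt t)

theorem wt_ge (t : ℝ) : 1 ≤ wt t := by
  have : 0 ≤ log (1 + t ^ 2) := log_nonneg (by nlinarith [sq_nonneg t])
  unfold wt; linarith

theorem wt_pos (t : ℝ) : 0 < wt t := lt_of_lt_of_le one_pos (wt_ge t)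

theorem GG_sq (t : ℝ) : GG t ^ 2 = (√(1 + t ^ 2) - √2) ^ 2 * wt t := by
  unfold GG
  rw [mul_pow, sq_sqrt (wt_pos t).le]

/-- `s log s - s + 1 ≤ 12 (√(1+s) - √2)² (1 + log (1+s))` -/
theorem ent_pt {s : ℝ} (hs : 0 ≤ s) :
    s * log s - s + 1 ≤ 12 * ((√(1 + s) - √2) ^ 2 * (1 + log (1 + s))) := by
  have hr : √(1 + s) ^ 2 = 1 + s := sq_sqrt (by linarith)
  have h2 : √2 ^ 2 = (2 : ℝ) := sq_sqrt (by norm_num)
  have hr0 : 0 ≤ √(1 + s) := sqrt_nonneg _
  have h20 : 0 ≤ √2 := sqrt_nonneg _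
  have hl0 : 0 ≤ log (1 + s) := log_nonneg (by linarith)
  -- `(√(1+s) - √2)² ≥ (s-1)²/(2(s+3))`
  have hA : (s - 1) ^ 2 ≤ 2 * (s + 3) * (√(1 + s) - √2) ^ 2 := by
    have e : (s - 1) ^ 2 = (√(1 + s) - √2) ^ 2 * (√(1 + s) + √2) ^ 2 := by
      have : (√(1 + s) - √2) ^ 2 * (√(1 + s) + √2) ^ 2 = (√(1 + s) ^ 2 - √2 ^ 2) ^ 2 := by ring
      rw [this, hr, h2]; ring
    have h3 : (√(1 + s) + √2) ^ 2 ≤ 2 * (s + 3) := by
      nlinarith [sq_nonneg (√(1 + s) - √2)]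
    rw [e]
    nlinarith [sq_nonneg (√(1 + s) - √2), mul_le_mul_of_nonneg_left h3
      (sq_nonneg (√(1 + s) - √2))]
  have hB : s * log s - s + 1 ≤ (s - 1) ^ 2 := by
    rcases hs.eq_or_lt with h | h
    · subst h; simp
    · have := log_le_sub_one_of_pos h
      nlinarith [mul_le_mul_of_nonneg_left this hs]
  set D := (√(1 + s) - √2) ^ 2 with hD
  have hD0 : 0 ≤ D := sq_nonneg _
  have hs3 : 0 < s + 3 := by linarith
  rcases le_total s 5 with h5 | h5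
  · -- `s + 3 ≤ 6 (1 + log (1+s))`
    have hlow : s + 3 ≤ 6 * (1 + log (1 + s)) := by
      have h6 : 1 - (1 + s)⁻¹ ≤ log (1 + s) := one_sub_inv_le_log_of_pos (by linarith)
      have h7 : (1 + s)⁻¹ ≤ (9 - (s + 3)) / 6 + 0 ∨ True := Or.inr trivial
      have h8 : s + 3 ≤ 6 * (2 - (1 + s)⁻¹) := by
        have hp : 0 < 1 + s := by linarith
        have : (1 + s)⁻¹ ≤ (9 - s) / 6 := by
          rw [inv_le_iff_one_le_mul₀ hp]
          nlinarith
        linarith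
      linarith
    have : (s - 1) ^ 2 ≤ 12 * (D * (1 + log (1 + s))) := by
      have := mul_le_mul_of_nonneg_right hlow hD0
      nlinarith
    linarith
  · have h9 : s * log s ≤ s * log (1 + s) :=
      mul_le_mul_of_nonneg_left (log_le_log (by linarith) (by linarith)) hs
    have h10 : s ≤ 12 * D := by
      have : s * (2 * (s + 3)) ≤ 12 * (s - 1) ^ 2 := by nlinarith
      have h11 : s * (2 * (s + 3)) ≤ 12 * (2 * (s + 3) * D) := by linarith
      have h12 : (2 * (s + 3)) * s ≤ (2 * (s + 3)) * (12 * D) := by linarith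
      exact le_of_mul_le_mul_left h12 (by linarith)
    have h13 : s * (1 + log (1 + s)) ≤ 12 * D * (1 + log (1 + s)) :=
      mul_le_mul_of_nonneg_right h10 (by linarith)
    nlinarith

/-- `log (1+s) ≤ √s` -/
theorem log_le_sqrt {s : ℝ} (hs : 0 ≤ s) : log (1 + s) ≤ √s := by
  set u := √s with hu
  have hu0 : 0 ≤ u := sqrt_nonneg _
  have hs' : s = u ^ 2 := (sq_sqrt hs).symm
  rw [log_le_iff_le_exp (by linarith)]
  have h := sum_le_exp_of_nonneg hu0 4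
  have e : ∑ i ∈ Finset.range 4, u ^ i / (Nat.factorial i : ℝ) =
      1 + u + u ^ 2 / 2 + u ^ 3 / 6 := by
    simp [Finset.sum_range_succ, Nat.factorial]
  rw [e] at h
  have : 0 ≤ u * (1 - u / 2 + u ^ 2 / 6) := by
    apply mul_nonneg hu0
    nlinarith [sq_nonneg (u - 3 / 2)]
  rw [hs']
  nlinarith

/-- `(√(1+ℓ) - 1)² ≤ s/4` -/
theorem sqrtwt_pt (t : ℝ) : (√(wt t) - 1) ^ 2 ≤ t ^ 2 / 4 := by
  have h1 := wt_ge t
  have h2 : √(wt t) ^ 2 = wt t := sq_sqrt (wt_pos t).le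
  have h3 : 1 ≤ √(wt t) := by
    rw [show (1 : ℝ) = √1 by simp]; exact sqrt_le_sqrt h1
  have h4 : wt t - 1 ≤ |t| := by
    have := log_le_sqrt (s := t ^ 2) (sq_nonneg t)
    rw [sqrt_sq_eq_abs] at this
    unfold wt; linarith
  have h5 : √(wt t) - 1 ≤ |t| / 2 := by nlinarith [sq_nonneg (√(wt t) - 1)]
  have h6 : (√(wt t) - 1) ^ 2 ≤ (|t| / 2) ^ 2 := pow_le_pow_left₀ (by linarith) h5 2
  have h7 : (|t| / 2) ^ 2 = t ^ 2 / 4 := by rw [div_pow, sq_abs]; norm_num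
  linarith

theorem contDiff_GG : ContDiff ℝ (⊤ : ℕ∞) GG := by
  unfold GG wt
  have h1 : ∀ x : ℝ, (1 + x ^ 2) ≠ 0 := fun x => by positivity
  have h2 : ∀ x : ℝ, 1 + log (1 + x ^ 2) ≠ 0 := fun x => (wt_pos x).ne'
  apply ContDiff.mul
  · apply ContDiff.sub _ contDiff_const
    exact ContDiff.sqrt (by fun_prop) h1
  · apply ContDiff.sqrt _ h2
    exact contDiff_const.add (ContDiff.log (by fun_prop) h1)

theorem hasDerivAt_GG (t : ℝ) :
    HasDerivAt GG (t / √(1 + t ^ 2) * √(wt t) +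
      (√(1 + t ^ 2) - √2) * ((2 * t / (1 + t ^ 2)) / (2 * √(wt t)))) t := by
  have h0 : HasDerivAt (fun t : ℝ => 1 + t ^ 2) (2 * t) t := by
    have := (hasDerivAt_pow 2 t).const_add 1
    simpa using this
  have hp : (1 + t ^ 2) ≠ 0 := by positivity
  have h1 : HasDerivAt (fun t : ℝ => √(1 + t ^ 2)) (2 * t / (2 * √(1 + t ^ 2))) t := h0.sqrt hp
  have h2 : HasDerivAt (fun t : ℝ => log (1 + t ^ 2)) (2 * t / (1 + t ^ 2)) t := h0.log hp
  have h3 : HasDerivAt wt (2 * t / (1 + t ^ 2)) t := by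
    exact h2.const_add 1
  have h4 : HasDerivAt (fun t => √(wt t)) ((2 * t / (1 + t ^ 2)) / (2 * √(wt t))) t :=
    h3.sqrt (wt_pos t).ne'
  have h5 := (h1.sub_const (√2)).mul h4
  have e : 2 * t / (2 * √(1 + t ^ 2)) = t / √(1 + t ^ 2) := by
    rw [mul_div_mul_left _ _ (by norm_num : (2 : ℝ) ≠ 0)]
  rw [e] at h5
  exact h5

theorem deriv_GG_sq (t : ℝ) : deriv GG t ^ 2 ≤ 4 * wt t := by
  rw [(hasDerivAt_GG t).deriv]
  have hp : 0 < 1 + t ^ 2 := by positivity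
  set r := √(1 + t ^ 2) with hr
  have hr2 : r ^ 2 = 1 + t ^ 2 := sq_sqrt hp.le
  have hr1 : 1 ≤ r := by
    rw [show (1 : ℝ) = √1 by simp]; exact sqrt_le_sqrt (by nlinarith [sq_nonneg t])
  set q := √(wt t) with hq
  have hq2 : q ^ 2 = wt t := sq_sqrt (wt_pos t).le
  have hq1 : 1 ≤ q := by
    rw [show (1 : ℝ) = √1 by simp]; exact sqrt_le_sqrt (wt_ge t)
  have htr : |t| ≤ r := abs_le_sqrt (by linarith)
  have h2 : √2 ^ 2 = (2 : ℝ) := sq_sqrt (by norm_num)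
  have h20 : 0 ≤ √2 := sqrt_nonneg _
  have h22 : √2 ≤ 2 := by nlinarith
  have hA : |t / r * q| ≤ q := by
    rw [abs_mul, abs_div, abs_of_pos (by linarith : 0 < r), abs_of_pos (by linarith : 0 < q)]
    have : |t| / r ≤ 1 := by rw [div_le_one (by linarith)]; exact htr
    nlinarith
  have hB : |(r - √2) * ((2 * t / (1 + t ^ 2)) / (2 * q))| ≤ q := by
    have h3 : |r - √2| ≤ r := by rw [abs_le]; constructor <;> linarith
    have e : (r - √2) * ((2 * t / (1 + t ^ 2)) / (2 * q)) = ((r - √2) * t) / (r ^ 2 * q) := by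
      rw [hr2]
      field_simp
    rw [e, abs_div, abs_mul, abs_of_pos (show 0 < r ^ 2 * q by positivity)]
    rw [div_le_iff₀ (by positivity)]
    calc |r - √2| * |t| ≤ r * r := mul_le_mul h3 htr (abs_nonneg _) (by linarith)
      _ ≤ q * (r ^ 2 * q) := by nlinarith [mul_nonneg (sub_nonneg.2 hq1) (sub_nonneg.2 hq1), sq_nonneg r]
  have hC : |t / r * q + (r - √2) * ((2 * t / (1 + t ^ 2)) / (2 * q))| ≤ 2 * q := by
    refine (abs_add_le _ _).trans ?_
    linarith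
  calc (t / r * q + (r - √2) * ((2 * t / (1 + t ^ 2)) / (2 * q))) ^ 2
      = |t / r * q + (r - √2) * ((2 * t / (1 + t ^ 2)) / (2 * q))| ^ 2 := (sq_abs _).symm
    _ ≤ (2 * q) ^ 2 := pow_le_pow_left₀ (abs_nonneg _) hC 2
    _ = 4 * wt t := by rw [mul_pow, hq2]; norm_num

end Vale.Agent.P245.H89
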