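import Vale.Agent.P245.Defs
import Vale.Agent.P245.H89.LogPt

/-! # P245: the logarithmic form of the entropy bound under a Poincaré inequality -/

open MeasureTheory Real
open scoped ContDiff

namespace Vale.Agent.P245.H89

variable {n : ℕ} {μ : Measure (EuclideanSpace ℝ (Fin n))} [IsProbabilityMeasure μ]

theorem int_comp {f : EuclideanSpace ℝ (Fin n) → ℝ} (hf : Continuous f) (hc : HasCompactSupport f)
    {φ : ℝ → ℝ} (hφ : Continuous φ) : Integrable (fun x => φ (f x)) μ := by
  obtain ⟨B, hB⟩ := (hc.isCompact_range hf).exists_bound_of_continuousOn hφ.continuousOn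
  exact Integrable.of_bound (hφ.comp hf).aestronglyMeasurable B
    (ae_of_all _ fun x => hB _ ⟨x, rfl⟩)

/-- Cauchy–Schwarz -/
theorem cs {u v : EuclideanSpace ℝ (Fin n) → ℝ} (hu : Integrable (fun x => u x ^ 2) μ)
    (hv : Integrable (fun x => v x ^ 2) μ) (huv : Integrable (fun x => u x * v x) μ) :
    (∫ x, u x * v x ∂μ) ^ 2 ≤ (∫ x, u x ^ 2 ∂μ) * ∫ x, v x ^ 2 ∂μ := by
  have h : ∀ l : ℝ, 0 ≤ (∫ x, u x ^ 2 ∂μ) * (l * l) + (-(2 * ∫ x, u x * v x ∂μ)) * l +
      ∫ x, v x ^ 2 ∂μ := by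
    intro l
    have h0 : 0 ≤ ∫ x, (l * u x - v x) ^ 2 ∂μ := integral_nonneg fun x => sq_nonneg _
    have e : (fun x => (l * u x - v x) ^ 2) =
        fun x => (l * l) * u x ^ 2 - (2 * l) * (u x * v x) + v x ^ 2 := by
      funext x; ring
    have j1 : Integrable (fun x => (l * l) * u x ^ 2) μ := hu.const_mul _
    have j2 : Integrable (fun x => (2 * l) * (u x * v x)) μ := huv.const_mul _
    have j3 : Integrable (fun x => (l * l) * u x ^ 2 - (2 * l) * (u x * v x)) μ := j1.sub j2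
    rw [e, integral_add j3 hv, integral_sub j1 j2, integral_const_mul, integral_const_mul] at h0
    linarith
  have := discrim_le_zero h
  unfold discrim at this
  nlinarith

/-- the entropic Young inequality -/
theorem young {u φ : EuclideanSpace ℝ (Fin n) → ℝ} (hu : Continuous u) (hc : HasCompactSupport u)
    (hu0 : ∀ x, 0 ≤ u x) (hφ : Continuous φ) {B : ℝ} (hB : ∀ x, |φ x| ≤ B) :
    ∫ x, u x * φ x ∂μ ≤ Entropy μ u + (∫ x, u x ∂μ) * log (∫ x, exp (φ x) ∂μ) := by
  have i1 : Integrable u μ := int_comp hu hc continuous_id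
  have i2 : Integrable (fun x => u x * log (u x)) μ := int_comp hu hc continuous_mul_log
  have i3 : Integrable (fun x => u x * φ x) μ := by
    have : Integrable (fun x => φ x * u x) μ :=
      i1.bdd_mul hφ.aestronglyMeasurable (ae_of_all _ fun x => (norm_eq_abs (φ x)).le.trans (hB x))
    simpa [mul_comm] using this
  have i4 : Integrable (fun x => exp (φ x)) μ :=
    Integrable.of_bound (continuous_exp.comp hφ).aestronglyMeasurable (exp B)
      (ae_of_all _ fun x => by
        rw [norm_eq_abs, abs_of_pos (exp_pos _)]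
        exact exp_le_exp.2 ((le_abs_self _).trans (hB x)))
  set U := ∫ x, u x ∂μ with hU
  set Z := ∫ x, exp (φ x) ∂μ with hZ
  have hZ0 : 0 < Z := by
    have h1 : ∫ _x : EuclideanSpace ℝ (Fin n), exp (-B) ∂μ ≤ Z :=
      integral_mono (integrable_const _) i4 fun x => exp_le_exp.2 (neg_le_of_abs_le (hB x))
    have h2 : exp (-B) ≤ Z := by simpa using h1
    exact lt_of_lt_of_le (exp_pos _) h2
  have hU0 : 0 ≤ U := integral_nonneg hu0
  unfold Entropy
  rw [← hU]
  rcases hU0.eq_or_lt with h0 | hpos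
  · have hz : u =ᵐ[μ] 0 := (integral_eq_zero_iff_of_nonneg hu0 i1).1 h0.symm
    have e1 : ∫ x, u x * φ x ∂μ = 0 := by
      rw [integral_eq_zero_of_ae]
      filter_upwards [hz] with x hx
      simp [hx]
    have e2 : ∫ x, u x * log (u x) ∂μ = 0 := by
      rw [integral_eq_zero_of_ae]
      filter_upwards [hz] with x hx
      simp [hx]
    rw [e1, e2, ← h0]; simp
  · have key : ∀ x, u x * φ x ≤
        u x * log (u x) - u x * log U - u x + (U / Z) * exp (φ x) + u x * log Z := by
      intro x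
      rcases (hu0 x).eq_or_lt with h | h
      · rw [← h]; simp only [zero_mul, zero_sub, neg_zero, zero_add, add_zero]
        positivity
      · have h1 := add_one_le_exp (φ x - log Z - log (u x / U))
        have h2 : exp (φ x - log Z - log (u x / U)) = exp (φ x) / Z / (u x / U) := by
          rw [exp_sub, exp_sub, exp_log hZ0, exp_log (by positivity)]
        rw [h2, log_div h.ne' hpos.ne'] at h1
        have h3 := mul_le_mul_of_nonneg_left h1 h.le
        have h4 : u x * (exp (φ x) / Z / (u x / U)) = (U / Z) * exp (φ x) := by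
          field_simp
        rw [h4] at h3
        nlinarith
    have j1 : Integrable (fun x => u x * log U) μ := i1.mul_const _
    have j2 : Integrable (fun x => u x * log (u x) - u x * log U) μ := i2.sub j1
    have j3 : Integrable (fun x => u x * log (u x) - u x * log U - u x) μ := j2.sub i1
    have j4 : Integrable (fun x => (U / Z) * exp (φ x)) μ := i4.const_mul _
    have j5 : Integrable (fun x => u x * log (u x) - u x * log U - u x + (U / Z) * exp (φ x)) μ :=
      j3.add j4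
    have j6 : Integrable (fun x => u x * log Z) μ := i1.mul_const _
    have h := integral_mono i3 (j5.add j6) key
    have e : ∫ x, (u x * log (u x) - u x * log U - u x + (U / Z) * exp (φ x) + u x * log Z) ∂μ =
        ∫ x, u x * log (u x) ∂μ - U * log U - U + (U / Z) * Z + U * log Z := by
      rw [integral_add j5 j6, integral_add j3 j4, integral_sub j2 i1, integral_sub i2 j1,
        integral_mul_const, integral_mul_const, integral_const_mul]
    have h5 : (U / Z) * Z = U := by field_simp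
    have h6 : ∫ x, u x * φ x ∂μ ≤
        ∫ x, u x * log (u x) ∂μ - U * log U - U + (U / Z) * Z + U * log Z := by
      rw [← e]; exact h
    rw [h5] at h6
    linarith

/-- the entropy of a nonnegative function is nonnegative -/
theorem ent_nonneg {u : EuclideanSpace ℝ (Fin n) → ℝ} (hu : Continuous u)
    (hc : HasCompactSupport u) (hu0 : ∀ x, 0 ≤ u x) : 0 ≤ Entropy μ u := by
  have := young (μ := μ) (φ := fun _ => 0) hu hc hu0 continuous_const (B := 0) (by simp)
  simpa using this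

/-- the key bound on the mean, in normalised form -/
theorem mean_bd {f : EuclideanSpace ℝ (Fin n) → ℝ} (hf : Continuous f) (hc : HasCompactSupport f)
    (h1 : ∫ x, f x ^ 2 ∂μ = 1) :
    (∫ x, GG (f x) ∂μ) ^ 2 ≤ 78 / 100 * ∫ x, GG (f x) ^ 2 ∂μ := by
  have cwt : Continuous wt := by
    unfold wt
    exact continuous_const.add (Continuous.log (by fun_prop) fun x => by positivity)
  have cu : Continuous fun t : ℝ => √(1 + t ^ 2) - √2 := by fun_prop
  have cv : Continuous fun t : ℝ => √(wt t) - 1 := (continuous_sqrt.comp cwt).sub continuous_const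
  have cr : Continuous fun t : ℝ => √(1 + t ^ 2) := by fun_prop
  have i1 : Integrable (fun x => f x ^ 2) μ := int_comp hf hc (continuous_pow 2)
  have ir : Integrable (fun x => √(1 + f x ^ 2)) μ := int_comp hf hc cr
  have iu : Integrable (fun x => √(1 + f x ^ 2) - √2) μ := int_comp hf hc cu
  have iu2 : Integrable (fun x => (√(1 + f x ^ 2) - √2) ^ 2) μ := int_comp hf hc (cu.pow 2)
  have iv2 : Integrable (fun x => (√(wt (f x)) - 1) ^ 2) μ := int_comp hf hc (cv.pow 2)
  have iuv : Integrable (fun x => (√(1 + f x ^ 2) - √2) * (√(wt (f x)) - 1)) μ :=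
    int_comp hf hc (cu.mul cv)
  have iG2 : Integrable (fun x => GG (f x) ^ 2) μ :=
    int_comp hf hc (contDiff_GG.continuous.pow 2)
  have h2 : √2 ^ 2 = (2 : ℝ) := sq_sqrt (by norm_num)
  have h20 : 0 ≤ √2 := sqrt_nonneg _
  set r := ∫ x, √(1 + f x ^ 2) ∂μ with hr
  set J := ∫ x, (√(1 + f x ^ 2) - √2) ^ 2 ∂μ with hJ
  set A := ∫ x, (√(1 + f x ^ 2) - √2) * (√(wt (f x)) - 1) ∂μ with hA
  have hr1 : 1 ≤ r := by
    have : ∫ _x : EuclideanSpace ℝ (Fin n), (1 : ℝ) ∂μ ≤ r :=
      integral_mono (integrable_const _) ir fun x => by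
        show (1 : ℝ) ≤ √(1 + f x ^ 2)
        rw [show (1 : ℝ) = √1 by simp]
        exact sqrt_le_sqrt (by simp; positivity)
    simpa using this
  have hJe : J = 2 * √2 * (√2 - r) := by
    have e : (fun x => (√(1 + f x ^ 2) - √2) ^ 2) =
        fun x => f x ^ 2 - (2 * √2) * √(1 + f x ^ 2) + 3 := by
      funext x
      have : √(1 + f x ^ 2) ^ 2 = 1 + f x ^ 2 := sq_sqrt (by positivity)
      nlinarith
    have j1 : Integrable (fun x => (2 * √2) * √(1 + f x ^ 2)) μ := ir.const_mul _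
    have j2 : Integrable (fun x => f x ^ 2 - (2 * √2) * √(1 + f x ^ 2)) μ := i1.sub j1
    rw [hJ, e, integral_add j2 (integrable_const _), integral_sub i1 j1, integral_const_mul, h1]
    simp only [integral_const, probReal_univ, smul_eq_mul, one_mul]
    rw [← hr]; nlinarith
  have hJ0 : 0 ≤ J := integral_nonneg fun x => sq_nonneg _
  have hA2 : A ^ 2 ≤ J / 4 := by
    have h3 := cs iu2 iv2 iuv
    have h4 : ∫ x, (√(wt (f x)) - 1) ^ 2 ∂μ ≤ 1 / 4 := by
      have h5 : ∫ x, (√(wt (f x)) - 1) ^ 2 ∂μ ≤ ∫ x, f x ^ 2 / 4 ∂μ :=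
        integral_mono iv2 (i1.div_const 4) fun x => sqrtwt_pt (f x)
      rw [integral_div, h1] at h5
      exact h5
    have := mul_le_mul_of_nonneg_left h4 hJ0
    linarith
  have hmean : ∫ x, GG (f x) ∂μ = (r - √2) + A := by
    have e : (fun x => GG (f x)) = fun x => (√(1 + f x ^ 2) - √2) +
        (√(1 + f x ^ 2) - √2) * (√(wt (f x)) - 1) := by
      funext x; unfold GG; ring
    rw [e, integral_add iu iuv, integral_sub ir (integrable_const _)]
    simp only [integral_const, probReal_univ, smul_eq_mul, one_mul]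
    rw [← hr, ← hA]
  have hJG : J ≤ ∫ x, GG (f x) ^ 2 ∂μ := by
    refine integral_mono iu2 iG2 fun x => ?_
    show (√(1 + f x ^ 2) - √2) ^ 2 ≤ GG (f x) ^ 2
    rw [GG_sq]
    exact le_mul_of_one_le_right (sq_nonneg _) (wt_ge _)
  have hs2 : √2 ≤ 1.4143 := by
    rw [sqrt_le_left (by norm_num)]; norm_num
  have hs2' : 1.4142 ≤ √2 := by
    apply le_sqrt_of_sq_le; norm_num
  have ha0 : 0 ≤ √2 - r := by
    by_contra hneg
    push Not at hneg
    have : J < 0 := by
      rw [hJe]
      exact mul_neg_of_pos_of_neg (by linarith) hneg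
    linarith
  have ha1 : (√2 - r) ^ 2 ≤ 0.1465 * J := by
    rw [hJe]
    have : √2 - r ≤ 0.293 * √2 := by linarith
    nlinarith [mul_le_mul_of_nonneg_left this ha0]
  have h6 : ((r - √2) + A) ^ 2 ≤ 9 / 4 * (√2 - r) ^ 2 + 9 / 5 * A ^ 2 := by
    nlinarith [sq_nonneg (5 / 4 * (r - √2) - A)]
  rw [hmean]
  linarith

/-- the gradient of the test function -/
theorem grad_bd {f : EuclideanSpace ℝ (Fin n) → ℝ} (hf : ContDiff ℝ ∞ f) {σ : ℝ} (hσ : 0 < σ)
    (x : EuclideanSpace ℝ (Fin n)) :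
    ‖gradient (fun y => σ * GG (f y / σ) - σ * GG 0) x‖ ^ 2 ≤
      4 * (‖gradient f x‖ ^ 2 * wt (f x / σ)) := by
  have hd : DifferentiableAt ℝ f x := (hf.differentiable (by simp)) x
  have h1 : HasFDerivAt (fun y => f y / σ) (σ⁻¹ • fderiv ℝ f x) x := by
    have := hd.hasFDerivAt.const_mul σ⁻¹
    refine this.congr_of_eventuallyEq (Filter.Eventually.of_forall fun y => ?_)
    show f y / σ = σ⁻¹ * f y
    rw [div_eq_inv_mul]
  have h2 : HasDerivAt GG (deriv GG (f x / σ)) (f x / σ) :=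
    (hasDerivAt_GG (f x / σ)).differentiableAt.hasDerivAt
  have h3 : HasFDerivAt (GG ∘ fun y => f y / σ) (deriv GG (f x / σ) • (σ⁻¹ • fderiv ℝ f x)) x :=
    HasDerivAt.comp_hasFDerivAt (h₂ := GG) x h2 h1
  have h4 : HasFDerivAt (fun y => σ * GG (f y / σ) - σ * GG 0)
      (σ • (deriv GG (f x / σ) • (σ⁻¹ • fderiv ℝ f x))) x :=
    (h3.const_mul σ).sub_const _
  have h5 : ‖gradient (fun y => σ * GG (f y / σ) - σ * GG 0) x‖ =
      |deriv GG (f x / σ)| * ‖gradient f x‖ := by
    unfold gradient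
    rw [LinearIsometryEquiv.norm_map, LinearIsometryEquiv.norm_map, h4.fderiv, smul_smul, smul_smul,
      norm_smul, norm_eq_abs]
    congr 2
    field_simp
  rw [h5, mul_pow, sq_abs]
  have := mul_le_mul_of_nonneg_right (deriv_GG_sq (f x / σ)) (sq_nonneg ‖gradient f x‖)
  linarith

/-- continuity of the gradient -/
theorem cgrad {f : EuclideanSpace ℝ (Fin n) → ℝ} (hf : ContDiff ℝ ∞ f) :
    Continuous fun x => gradient f x := by
  unfold gradient
  exact (LinearIsometryEquiv.continuous _).comp (hf.continuous_fderiv (by simp))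

theorem hcgrad {f : EuclideanSpace ℝ (Fin n) → ℝ} (hc : HasCompactSupport f) :
    HasCompactSupport fun x => ‖gradient f x‖ ^ 2 := by
  have h1 : HasCompactSupport fun x => gradient f x :=
    (hc.fderiv (𝕜 := ℝ)).comp_left
      (g := fun L => (InnerProductSpace.toDual ℝ (EuclideanSpace ℝ (Fin n))).symm L) (by simp)
  exact h1.norm.comp_left (g := fun t : ℝ => t ^ 2) (by simp)

theorem grad_int {f : EuclideanSpace ℝ (Fin n) → ℝ} (hf : ContDiff ℝ ∞ f)
    (hc : HasCompactSupport f) {σ m : ℝ} (hσ0 : 0 < σ) (hpos : 0 < m) (hσ2 : σ ^ 2 = m)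
    (hgs : ContDiff ℝ ∞ fun y => σ * GG (f y / σ) - σ * GG 0)
    (hgc : HasCompactSupport fun y => σ * GG (f y / σ) - σ * GG 0) :
    ∫ x, ‖gradient (fun y => σ * GG (f y / σ) - σ * GG 0) x‖ ^ 2 ∂μ ≤
      4 * ∫ x, ‖gradient f x‖ ^ 2 * (1 + log (1 + f x ^ 2 / m)) ∂μ := by
  have hfc := hf.continuous
  have cw : Continuous fun x => 1 + log (1 + f x ^ 2 / m) := by
    refine continuous_const.add (Continuous.log (by fun_prop) fun x => ?_)
    have : 0 ≤ f x ^ 2 / m := by positivity
    linarith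
  have l1 : Integrable (fun x => ‖gradient (fun y => σ * GG (f y / σ) - σ * GG 0) x‖ ^ 2) μ :=
    Continuous.integrable_of_hasCompactSupport ((cgrad hgs).norm.pow 2) (hcgrad hgc)
  have l2 : Integrable (fun x => ‖gradient f x‖ ^ 2 * (1 + log (1 + f x ^ 2 / m))) μ :=
    Continuous.integrable_of_hasCompactSupport (((cgrad hf).norm.pow 2).mul cw)
      (hcgrad hc).mul_right
  rw [← integral_const_mul]
  refine integral_mono l1 (l2.const_mul _) fun x => ?_
  have h := grad_bd hf hσ0 x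
  have e : wt (f x / σ) = 1 + log (1 + f x ^ 2 / m) := by
    unfold wt
    rw [div_pow, hσ2]
  rw [e] at h
  exact h

/-- **The logarithmic form.** -/
theorem log_form {C : ℝ} (hC : 0 ≤ C)
    (hP : ∀ f : EuclideanSpace ℝ (Fin n) → ℝ, ContDiff ℝ ∞ f → HasCompactSupport f →
      (∫ x, f x ^ 2 ∂μ) - (∫ x, f x ∂μ) ^ 2 ≤ C * ∫ x, ‖gradient f x‖ ^ 2 ∂μ)
    {f : EuclideanSpace ℝ (Fin n) → ℝ} (hf : ContDiff ℝ ∞ f) (hc : HasCompactSupport f) :
    Entropy μ (fun x => f x ^ 2) ≤
      240 * C * ∫ x, ‖gradient f x‖ ^ 2 * (1 + log (1 + f x ^ 2 / ∫ y, f y ^ 2 ∂μ)) ∂μ := by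
  have hfc := hf.continuous
  have i2 : Integrable (fun x => f x ^ 2) μ := int_comp hfc hc (continuous_pow 2)
  have hR0 : 0 ≤ ∫ x, ‖gradient f x‖ ^ 2 * (1 + log (1 + f x ^ 2 / ∫ y, f y ^ 2 ∂μ)) ∂μ := by
    refine integral_nonneg fun x => mul_nonneg (sq_nonneg _) ?_
    have h0 : 0 ≤ ∫ y, f y ^ 2 ∂μ := integral_nonneg fun x => sq_nonneg _
    have : 0 ≤ log (1 + f x ^ 2 / ∫ y, f y ^ 2 ∂μ) := log_nonneg (by
      have : 0 ≤ f x ^ 2 / ∫ y, f y ^ 2 ∂μ := by positivity
      linarith)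
    linarith
  set m := ∫ y, f y ^ 2 ∂μ with hm
  have hm0 : 0 ≤ m := integral_nonneg fun x => sq_nonneg _
  rcases hm0.eq_or_lt with h0 | hpos
  · have hz : (fun x => f x ^ 2) =ᵐ[μ] 0 :=
      (integral_eq_zero_iff_of_nonneg (fun x => sq_nonneg _) i2).1 h0.symm
    have e2 : ∫ x, f x ^ 2 * log (f x ^ 2) ∂μ = 0 := by
      rw [integral_eq_zero_of_ae]
      filter_upwards [hz] with x hx
      have hx' : f x ^ 2 = 0 := hx
      simp [hx']
    have : Entropy μ (fun x => f x ^ 2) = 0 := by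
      unfold Entropy
      rw [e2, ← hm, ← h0]; simp
    rw [this]
    positivity
  set σ := √m with hσ
  have hσ0 : 0 < σ := sqrt_pos.2 hpos
  have hσ2 : σ ^ 2 = m := sq_sqrt hpos.le
  have ht2 : ∀ x, (f x / σ) ^ 2 = f x ^ 2 / m := fun x => by rw [div_pow, hσ2]
  have hft : Continuous fun x => f x / σ := hfc.div_const _
  have hct : HasCompactSupport fun x => f x / σ := by
    have := hc.comp_left (g := fun t : ℝ => t / σ) (by simp)
    exact this
  have i1t : ∫ x, (f x / σ) ^ 2 ∂μ = 1 := by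
    simp_rw [ht2]
    rw [integral_div, ← hm, div_self hpos.ne']
  have cG := contDiff_GG.continuous
  have iG : Integrable (fun x => GG (f x / σ)) μ := int_comp hft hct cG
  have iG2 : Integrable (fun x => GG (f x / σ) ^ 2) μ := int_comp hft hct (cG.pow 2)
  -- entropy
  have hent : Entropy μ (fun x => f x ^ 2) ≤ 12 * m * ∫ x, GG (f x / σ) ^ 2 ∂μ := by
    have c1 : Continuous fun t : ℝ => t ^ 2 * log (t ^ 2) :=
      continuous_mul_log.comp (continuous_pow 2)
    have k1 : Integrable (fun x => (f x / σ) ^ 2 * log ((f x / σ) ^ 2)) μ := int_comp hft hct c1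
    have k2 : Integrable (fun x => (f x / σ) ^ 2) μ := int_comp hft hct (continuous_pow 2)
    have k3 : Integrable (fun x => (f x / σ) ^ 2 * log ((f x / σ) ^ 2) - (f x / σ) ^ 2) μ :=
      k1.sub k2
    have e1 : ∀ x, f x ^ 2 * log (f x ^ 2) =
        log m * f x ^ 2 + m * ((f x / σ) ^ 2 * log ((f x / σ) ^ 2)) := by
      intro x
      rw [ht2]
      rcases eq_or_ne (f x ^ 2) 0 with h | h
      · rw [h]; simp
      · rw [log_div h hpos.ne']
        field_simp
        ring
    have e2 : Entropy μ (fun x => f x ^ 2) =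
        m * ∫ x, (f x / σ) ^ 2 * log ((f x / σ) ^ 2) ∂μ := by
      unfold Entropy
      simp_rw [e1]
      rw [integral_add (i2.const_mul _) (k1.const_mul _), integral_const_mul, integral_const_mul,
        ← hm]
      ring
    have e3 : ∫ x, (f x / σ) ^ 2 * log ((f x / σ) ^ 2) ∂μ =
        ∫ x, ((f x / σ) ^ 2 * log ((f x / σ) ^ 2) - (f x / σ) ^ 2 + 1) ∂μ := by
      rw [integral_add k3 (integrable_const _), integral_sub k1 k2, i1t]
      simp
    have e4 : ∫ x, ((f x / σ) ^ 2 * log ((f x / σ) ^ 2) - (f x / σ) ^ 2 + 1) ∂μ ≤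
        ∫ x, 12 * GG (f x / σ) ^ 2 ∂μ := by
      refine integral_mono (k3.add (integrable_const _)) (iG2.const_mul _) fun x => ?_
      have := ent_pt (s := (f x / σ) ^ 2) (sq_nonneg _)
      show _ ≤ 12 * GG (f x / σ) ^ 2
      rw [GG_sq]
      exact this
    rw [integral_const_mul] at e4
    rw [e2, e3]
    have := mul_le_mul_of_nonneg_left e4 hpos.le
    linarith
  -- the test function
  set g : EuclideanSpace ℝ (Fin n) → ℝ := fun y => σ * GG (f y / σ) - σ * GG 0 with hg
  have hgs : ContDiff ℝ ∞ g := by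
    have h1 : ContDiff ℝ ∞ fun y => GG (f y / σ) := contDiff_GG.comp (hf.div_const _)
    exact (contDiff_const.mul h1).sub contDiff_const
  have hgc : HasCompactSupport g := by
    have := hc.comp_left (g := fun t : ℝ => σ * GG (t / σ) - σ * GG 0) (by simp)
    exact this
  have hPg := hP g hgs hgc
  have hvar : (∫ x, g x ^ 2 ∂μ) - (∫ x, g x ∂μ) ^ 2 =
      m * ((∫ x, GG (f x / σ) ^ 2 ∂μ) - (∫ x, GG (f x / σ) ∂μ) ^ 2) := by
    have e1 : ∫ x, g x ∂μ = σ * (∫ x, GG (f x / σ) ∂μ) - σ * GG 0 := by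
      rw [hg, integral_sub (iG.const_mul _) (integrable_const _), integral_const_mul]
      simp
    have e2 : ∫ x, g x ^ 2 ∂μ = σ ^ 2 * (∫ x, GG (f x / σ) ^ 2 ∂μ) -
        (2 * σ ^ 2 * GG 0) * (∫ x, GG (f x / σ) ∂μ) + σ ^ 2 * GG 0 ^ 2 := by
      have e : (fun x => g x ^ 2) = fun x => σ ^ 2 * GG (f x / σ) ^ 2 -
          (2 * σ ^ 2 * GG 0) * GG (f x / σ) + σ ^ 2 * GG 0 ^ 2 := by
        funext x; rw [hg]; ring
      have j1 : Integrable (fun x => σ ^ 2 * GG (f x / σ) ^ 2) μ := iG2.const_mul _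
      have j2 : Integrable (fun x => (2 * σ ^ 2 * GG 0) * GG (f x / σ)) μ := iG.const_mul _
      have j3 : Integrable (fun x => σ ^ 2 * GG (f x / σ) ^ 2 -
          (2 * σ ^ 2 * GG 0) * GG (f x / σ)) μ := j1.sub j2
      rw [e, integral_add j3 (integrable_const _), integral_sub j1 j2, integral_const_mul,
        integral_const_mul]
      simp
    rw [e1, e2, ← hσ2]; ring
  have hmb := mean_bd (μ := μ) hft hct i1t
  have hgr : ∫ x, ‖gradient g x‖ ^ 2 ∂μ ≤
      4 * ∫ x, ‖gradient f x‖ ^ 2 * (1 + log (1 + f x ^ 2 / m)) ∂μ :=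
    grad_int hf hc hσ0 hpos hσ2 hgs hgc
  have h7 : (∫ x, GG (f x / σ) ^ 2 ∂μ) ≤
      5 * ((∫ x, GG (f x / σ) ^ 2 ∂μ) - (∫ x, GG (f x / σ) ∂μ) ^ 2) := by
    have h8 : 0 ≤ ∫ x, GG (f x / σ) ^ 2 ∂μ := integral_nonneg fun x => sq_nonneg _
    linarith
  have h9 := mul_le_mul_of_nonneg_left h7 hpos.le
  have h10 := mul_le_mul_of_nonneg_left hgr hC
  rw [hvar] at hPg
  linarith

/-- **The entropy form**: the inequality of Q1 with `∫|∇f|² + Ent(|∇f|²)` on the right. -/
theorem ent_form {C : ℝ} (hC : 0 ≤ C)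
    (hP : ∀ f : EuclideanSpace ℝ (Fin n) → ℝ, ContDiff ℝ ∞ f → HasCompactSupport f →
      (∫ x, f x ^ 2 ∂μ) - (∫ x, f x ∂μ) ^ 2 ≤ C * ∫ x, ‖gradient f x‖ ^ 2 ∂μ)
    {f : EuclideanSpace ℝ (Fin n) → ℝ} (hf : ContDiff ℝ ∞ f) (hc : HasCompactSupport f) :
    Entropy μ (fun x => f x ^ 2) ≤
      480 * C * (∫ x, ‖gradient f x‖ ^ 2 ∂μ + Entropy μ (fun x => ‖gradient f x‖ ^ 2)) := by
  have hfc := hf.continuous
  have i2 : Integrable (fun x => f x ^ 2) μ := int_comp hfc hc (continuous_pow 2)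
  have cgf : Continuous fun x => gradient f x := by
    unfold gradient
    exact (LinearIsometryEquiv.continuous _).comp (hf.continuous_fderiv (by simp))
  have hcf : HasCompactSupport fun x => gradient f x := by
    have := (hc.fderiv (𝕜 := ℝ)).comp_left
      (g := fun L => (InnerProductSpace.toDual ℝ (EuclideanSpace ℝ (Fin n))).symm L) (by simp)
    exact this
  have cu : Continuous fun x => ‖gradient f x‖ ^ 2 := cgf.norm.pow 2
  have hcu : HasCompactSupport fun x => ‖gradient f x‖ ^ 2 :=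
    hcf.norm.comp_left (g := fun t : ℝ => t ^ 2) (by simp)
  have iu : Integrable (fun x => ‖gradient f x‖ ^ 2) μ := cu.integrable_of_hasCompactSupport hcu
  have hu0 : ∀ x, 0 ≤ ‖gradient f x‖ ^ 2 := fun x => sq_nonneg _
  have hU0 : 0 ≤ ∫ x, ‖gradient f x‖ ^ 2 ∂μ := integral_nonneg hu0
  have hE0 : 0 ≤ Entropy μ (fun x => ‖gradient f x‖ ^ 2) := ent_nonneg cu hcu hu0
  have hmain := log_form hC hP hf hc
  set m := ∫ y, f y ^ 2 ∂μ with hm
  have hm0 : 0 ≤ m := integral_nonneg fun x => sq_nonneg _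
  obtain ⟨M, hM⟩ := hc.exists_bound_of_continuous hfc
  have hM' : ∀ x, f x ^ 2 / m ≤ M ^ 2 / m := fun x => by
    apply div_le_div_of_nonneg_right _ hm0
    have := hM x
    rw [norm_eq_abs] at this
    rw [← sq_abs]
    exact pow_le_pow_left₀ (abs_nonneg _) this 2
  have cφ : Continuous fun x => log (1 + f x ^ 2 / m) := by
    refine Continuous.log (by fun_prop) fun x => ?_
    have : 0 ≤ f x ^ 2 / m := by positivity
    linarith
  have hφB : ∀ x, |log (1 + f x ^ 2 / m)| ≤ log (1 + M ^ 2 / m) := fun x => by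
    have h0 : 0 ≤ f x ^ 2 / m := by positivity
    rw [abs_of_nonneg (log_nonneg (by linarith))]
    exact log_le_log (by linarith) (by linarith [hM' x])
  have hy := young (μ := μ) (φ := fun x => log (1 + f x ^ 2 / m)) cu hcu hu0 cφ hφB
  have hZ : ∫ x, exp (log (1 + f x ^ 2 / m)) ∂μ ≤ 2 := by
    have e : (fun x => exp (log (1 + f x ^ 2 / m))) = fun x => 1 + f x ^ 2 / m := by
      funext x
      have h0 : 0 ≤ f x ^ 2 / m := by positivity
      exact exp_log (by linarith)
    rw [e, integral_add (integrable_const _) (i2.div_const _), integral_div, ← hm]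
    simp only [integral_const, probReal_univ, smul_eq_mul, mul_one]
    have : m / m ≤ 1 := div_self_le_one m
    linarith
  have hZ1 : 0 < ∫ x, exp (log (1 + f x ^ 2 / m)) ∂μ := by
    have e : (fun x => exp (log (1 + f x ^ 2 / m))) = fun x => 1 + f x ^ 2 / m := by
      funext x
      have h0 : 0 ≤ f x ^ 2 / m := by positivity
      exact exp_log (by linarith)
    rw [e, integral_add (integrable_const _) (i2.div_const _), integral_div, ← hm]
    simp only [integral_const, probReal_univ, smul_eq_mul, mul_one]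
    have : 0 ≤ m / m := by positivity
    linarith
  have hlZ : log (∫ x, exp (log (1 + f x ^ 2 / m)) ∂μ) ≤ 1 := by
    have h1 := log_le_sub_one_of_pos hZ1
    linarith
  have hsplit : ∫ x, ‖gradient f x‖ ^ 2 * (1 + log (1 + f x ^ 2 / m)) ∂μ =
      (∫ x, ‖gradient f x‖ ^ 2 ∂μ) + ∫ x, ‖gradient f x‖ ^ 2 * log (1 + f x ^ 2 / m) ∂μ := by
    have j : Integrable (fun x => ‖gradient f x‖ ^ 2 * log (1 + f x ^ 2 / m)) μ :=
      (cu.mul cφ).integrable_of_hasCompactSupport hcu.mul_right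
    rw [← integral_add iu j]
    congr 1
    funext x
    ring
  have h1 : ∫ x, ‖gradient f x‖ ^ 2 * (1 + log (1 + f x ^ 2 / m)) ∂μ ≤
      2 * ((∫ x, ‖gradient f x‖ ^ 2 ∂μ) + Entropy μ (fun x => ‖gradient f x‖ ^ 2)) := by
    rw [hsplit]
    have := mul_le_mul_of_nonneg_left hlZ hU0
    linarith
  have h2 := mul_le_mul_of_nonneg_left h1 (show 0 ≤ 240 * C by linarith)
  linarith

end Vale.Agent.P245.H89
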