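import Vale.Agent.P245.H847.Stmt
import Vale.Agent.P245.H89.LogEnt

/-! # P245: the named parts of `DimensionFreePoincare` are monotone in the constant; the part
`EntropyInequalities`. -/

open MeasureTheory Matrix
open scoped ContDiff

namespace Vale.Agent.P245

variable {n : ℕ}

/-- For all `f ∈ C_c^∞`: the logarithmic Sobolev inequality with the logarithmic factor
`1 + log (1 + f²/∫f²)` inside the integral, and with the entropy of `|∇f|²` added to the
right-hand side. -/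
def EntropyInequalities (μ : Measure (EuclideanSpace ℝ (Fin n))) (C Λ : ℝ) : Prop :=
  ∀ f : EuclideanSpace ℝ (Fin n) → ℝ, ContDiff ℝ ∞ f → HasCompactSupport f →
    Entropy μ (fun x => f x ^ 2) ≤
      C * Λ * ∫ x, ‖gradient f x‖ ^ 2 * (1 + Real.log (1 + f x ^ 2 / ∫ y, f y ^ 2 ∂μ)) ∂μ ∧
    Entropy μ (fun x => f x ^ 2) ≤
      C * Λ * (∫ x, ‖gradient f x‖ ^ 2 ∂μ + Entropy μ (fun x => ‖gradient f x‖ ^ 2))

namespace H89

variable {μ : Measure (EuclideanSpace ℝ (Fin n))} {C C' Λ a : ℝ}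

theorem entropy_of_smooth [IsProbabilityMeasure μ] (hC : 0 ≤ C) (hΛ : 0 ≤ Λ)
    (h : SmoothInequalities μ C Λ) : EntropyInequalities μ (480 * C) Λ := by
  intro f hf hc
  have hCL : 0 ≤ C * Λ := mul_nonneg hC hΛ
  have hP : ∀ f : EuclideanSpace ℝ (Fin n) → ℝ, ContDiff ℝ ∞ f → HasCompactSupport f →
      (∫ x, f x ^ 2 ∂μ) - (∫ x, f x ∂μ) ^ 2 ≤ (C * Λ) * ∫ x, ‖gradient f x‖ ^ 2 ∂μ :=
    fun f hf hc => (h f hf hc).1
  have h1 := log_form (μ := μ) hCL hP hf hc
  have h2 := ent_form (μ := μ) hCL hP hf hc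
  have h0 : 0 ≤ ∫ x, ‖gradient f x‖ ^ 2 * (1 + Real.log (1 + f x ^ 2 / ∫ y, f y ^ 2 ∂μ)) ∂μ := by
    refine integral_nonneg fun x => mul_nonneg (sq_nonneg _) ?_
    have h3 : 0 ≤ ∫ y, f y ^ 2 ∂μ := integral_nonneg fun x => sq_nonneg _
    have h4 : 0 ≤ f x ^ 2 / ∫ y, f y ^ 2 ∂μ := by positivity
    have : 0 ≤ Real.log (1 + f x ^ 2 / ∫ y, f y ^ 2 ∂μ) := Real.log_nonneg (by linarith)
    linarith
  constructor
  · refine h1.trans ?_
    have := mul_nonneg hCL h0
    linarith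
  · refine h2.trans (le_of_eq ?_)
    ring

theorem affine_mono (hC : 0 < C) (h : AffinePoincare μ C) [IsProbabilityMeasure μ] (hCC : C ≤ C') :
    AffinePoincare μ C' := by
  intro b K hb hK f hf hc
  have h1 := h b K hb hK f hf hc
  have i1 : Integrable f μ := int_comp hf.continuous hc continuous_id
  have i2 : Integrable (fun x => f x ^ 2) μ := int_comp hf.continuous hc (continuous_pow 2)
  have hv : 0 ≤ (∫ x, f x ^ 2 ∂μ) - (∫ x, f x ∂μ) ^ 2 := by
    have := cs (μ := μ) (u := f) (v := fun _ => 1) i2 (by simp) (by simpa using i1)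
    simp at this
    linarith
  have h2 : 0 ≤ ∫ x, ∑ i, ∑ j, K i j * (gradient f x i * gradient f x j) ∂μ := by
    by_contra hneg
    push Not at hneg
    have := mul_neg_of_pos_of_neg hC hneg
    linarith
  exact h1.trans (mul_le_mul_of_nonneg_right hCC h2)

theorem smooth_mono (hΛ : 0 ≤ Λ) (h : SmoothInequalities μ C Λ) (hCC : C ≤ C') :
    SmoothInequalities μ C' Λ := by
  intro f hf hc
  obtain ⟨h1, h2, h3⟩ := h f hf hc
  have hI : 0 ≤ ∫ x, ‖gradient f x‖ ^ 2 ∂μ := integral_nonneg fun x => sq_nonneg _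
  refine ⟨h1.trans ?_, fun R hR hf' => (h2 R hR hf').trans ?_, fun p hp => (h3 p hp).trans ?_⟩
  · have := mul_le_mul_of_nonneg_right hCC (mul_nonneg hΛ hI)
    linarith
  · have h4 : 0 ≤ 1 + Real.log R := by have := Real.log_nonneg hR; linarith
    have := mul_le_mul_of_nonneg_right hCC (mul_nonneg h4 (mul_nonneg hΛ hI))
    linarith
  · have h5 : 0 ≤ (∫ x, ‖gradient f x‖ ^ p ∂μ) ^ (2 / p) :=
      Real.rpow_nonneg (integral_nonneg fun x => Real.rpow_nonneg (norm_nonneg _) _) _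
    have h6 : 0 ≤ p / (p - 2) := div_nonneg (by linarith) (by linarith)
    have := mul_le_mul_of_nonneg_right hCC (mul_nonneg h6 (mul_nonneg hΛ h5))
    linarith

theorem kurt_mono (hΛ : 0 ≤ Λ) (h : KurtosisInequality μ C Λ) (hCC : C ≤ C') :
    KurtosisInequality μ C' Λ := by
  intro f hf hc k hk hk'
  refine (h f hf hc k hk hk').trans ?_
  have hI : 0 ≤ ∫ x, ‖gradient f x‖ ^ 2 ∂μ := integral_nonneg fun x => sq_nonneg _
  have h4 : 0 ≤ 1 + Real.log k := by have := Real.log_nonneg hk; linarith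
  have := mul_le_mul_of_nonneg_right hCC (mul_nonneg h4 (mul_nonneg hΛ hI))
  linarith

theorem poly_mono (hΛ : 0 ≤ Λ) (h : PolynomialLogSobolev μ C Λ) (hCC : C ≤ C') :
    PolynomialLogSobolev μ C' Λ := by
  intro d q hq f hf
  refine (h d q hq f hf).trans ?_
  have hI : 0 ≤ ∫ x, ‖gradient f x‖ ^ 2 ∂μ := integral_nonneg fun x => sq_nonneg _
  have h4 : (0 : ℝ) ≤ d + 1 := by positivity
  have := mul_le_mul_of_nonneg_right hCC (mul_nonneg h4 (mul_nonneg hΛ hI))
  linarith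

theorem quasi_mono (hΛ : 0 ≤ Λ) (h : QuasiconcaveLogSobolev μ C Λ) (hCC : C ≤ C') :
    QuasiconcaveLogSobolev μ C' Λ := by
  intro f hf hc h0 hq
  refine (h f hf hc h0 hq).trans ?_
  have hI : 0 ≤ ∫ x, ‖gradient f x‖ ^ 2 ∂μ := integral_nonneg fun x => sq_nonneg _
  have := mul_le_mul_of_nonneg_right hCC (mul_nonneg hΛ hI)
  linarith

theorem iso_mono (hC : 0 < C) (ha : 0 < a) (h : ConvexIsoperimetry μ C a) (hCC : C ≤ C') :
    ConvexIsoperimetry μ C' a := by
  obtain ⟨h1, h2⟩ := h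
  refine ⟨fun A hA hc hp hh r hr hra => le_trans ?_ (h1 A hA hc hp hh r hr hra),
    fun Ω hΩ hne => (h2 Ω hΩ hne).trans ?_⟩
  · refine mul_le_mul_of_nonneg_left ?_ hp.le
    have h3 : 0 ≤ r * √(Real.log (1 / μ.real A)) := mul_nonneg hr (Real.sqrt_nonneg _)
    have h4 : C * a ≤ C' * a := mul_le_mul_of_nonneg_right hCC ha.le
    have := div_le_div_of_nonneg_left h3 (mul_pos hC ha) h4
    linarith
  · apply Real.exp_le_exp.2
    have h4 : C * a ^ 2 ≤ C' * a ^ 2 := mul_le_mul_of_nonneg_right hCC (sq_nonneg a)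
    have := div_le_div_of_nonneg_left (sq_nonneg (∫ x, Metric.infDist x Ω ∂μ))
      (mul_pos hC (pow_pos ha 2)) h4
    linarith

theorem conc_mono (hC : 0 < C) (ha : 0 < a) (h : ConvexConcentration μ C a) (hCC : C ≤ C') :
    ConvexConcentration μ C' a := by
  intro F hF hconv t ht
  obtain ⟨h1, h2⟩ := h F hF hconv t ht
  have h4 : C * a ^ 2 ≤ C' * a ^ 2 := mul_le_mul_of_nonneg_right hCC (sq_nonneg a)
  refine ⟨h1.trans (Real.exp_le_exp.2 (mul_le_mul_of_nonneg_right h4 (sq_nonneg t))),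
    h2.trans (Real.exp_le_exp.2 ?_)⟩
  have := div_le_div_of_nonneg_left (sq_nonneg t) (mul_pos hC (pow_pos ha 2)) h4
  linarith

end H89

end Vale.Agent.P245
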